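import Vale.Agent.P278F.Flow

/-! Commuting holomorphic vector fields have a joint holomorphic local flow. -/

open Metric Set Filter Topology MeasureTheory

namespace P278F

variable {V W : Type*} [NormedAddCommGroup V] [NormedSpace ℂ V]
  [NormedAddCommGroup W] [NormedSpace ℂ W] {B : V → W →L[ℂ] V} {p : V} {r ρ M : ℝ}

omit [NormedSpace ℂ V] in
theorem zero_of_half {R : ℝ → V} {C : ℝ} (h0 : ∀ t ∈ Icc (0:ℝ) 1, ‖R t‖ ≤ C)
    (hs : ∀ D : ℝ, (∀ t ∈ Icc (0:ℝ) 1, ‖R t‖ ≤ D) → ∀ t ∈ Icc (0:ℝ) 1, ‖R t‖ ≤ D / 2)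
    {t : ℝ} (ht : t ∈ Icc (0:ℝ) 1) : R t = 0 := by
  have h1 : ∀ n : ℕ, ∀ t ∈ Icc (0:ℝ) 1, ‖R t‖ ≤ C / 2 ^ n := by
    intro n
    induction n with
    | zero => simpa using h0
    | succ n ih =>
      intro t ht
      refine (hs _ ih t ht).trans_eq ?_
      rw [pow_succ]; field_simp
  have he : Tendsto (fun n : ℕ => C / 2 ^ n) atTop (𝓝 0) :=
    tendsto_const_nhds.div_atTop (tendsto_pow_atTop_atTop_of_one_lt one_lt_two)
  exact norm_le_zero_iff.mp (ge_of_tendsto' he fun n => h1 n t ht)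

theorem Dat.time_deriv [CompleteSpace V] (h : Dat B p r ρ M) {γ : ℝ → W × V → V}
    (g : Good p r ρ γ) (hf : ∀ t ∈ Icc (0:ℝ) 1, ∀ z ∈ dom p r ρ, γ t z = pic B γ t z)
    {c : W × V} (hc : c ∈ dom p r ρ) {s : ℝ} (hs : s ∈ Ioo (0:ℝ) 1) :
    HasDerivAt (fun u => γ u c) (B (γ s c) c.1) s := by
  have h0 : (0:ℝ) ∈ Icc (0:ℝ) 1 := by simp
  have hn : Icc (0:ℝ) 1 ∈ 𝓝 s := Icc_mem_nhds hs.1 hs.2
  have h1 : HasDerivAt (fun u => ∫ s in (0:ℝ)..u, B (γ s c) c.1) (B (γ s c) c.1) s :=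
    intervalIntegral.integral_hasDerivAt_right
      (intervalIntegrable_of_contOn (h.G_cont g hc) h0 (Ioo_subset_Icc_self hs))
      (((h.G_cont g hc).mono Ioo_subset_Icc_self).stronglyMeasurableAtFilter isOpen_Ioo s hs)
      ((h.G_cont g hc).continuousAt hn)
  refine (h1.const_add c.2).congr_of_eventuallyEq ?_
  filter_upwards [hn] with u hu using hf u hu c hc

theorem Dat.pde [FiniteDimensional ℂ V] (h : Dat B p r ρ M) {γ : ℝ → W × V → V}
    (g : Good p r ρ γ) (hf : ∀ t ∈ Icc (0:ℝ) 1, ∀ z ∈ dom p r ρ, γ t z = pic B γ t z)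
    (hcomm : ∀ q ∈ ball p (4 * r), ∀ v w : W,
      fderiv ℂ B q (B q v) w = fderiv ℂ B q (B q w) v)
    {c : W × V} (hc : c ∈ dom p r ρ) (w : W) : fderiv ℂ (γ 1) c (w, 0) = B (γ 1 c) w := by
  have : CompleteSpace V := FiniteDimensional.complete ℂ V
  have hr := h.hr
  have hM := h.M_nonneg
  have h0 : (0:ℝ) ∈ Icc (0:ℝ) 1 := by simp
  have hn : dom p r ρ ∈ 𝓝 c := isOpen_dom.mem_nhds hc
  have hγc : ContinuousOn (fun s => γ s c) (Icc 0 1) :=
    continuousOn_of_lip fun s hs t ht => g.lip s hs t ht c hc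
  have hmaps : MapsTo (fun s => γ s c) (Icc 0 1) (ball p (4 * r)) := fun s hs =>
    h.sub4 (g.mem s hs c hc)
  have hBc : ContinuousOn (fun s => B (γ s c)) (Icc 0 1) := h.hd.continuousOn.comp hγc hmaps
  have hDBc : ContinuousOn (fun s => fderiv ℂ B (γ s c)) (Icc 0 1) :=
    (differentiableOn_fderiv isOpen_ball h.hd).continuousOn.comp hγc hmaps
  have hDγ : ContinuousOn (fun s => fderiv ℂ (γ s) c) (Icc 0 1) :=
    continuousOn_fderiv_param isOpen_dom g.hol g.lip hc
  set R : ℝ → V := fun t => fderiv ℂ (γ t) c (w, 0) - t • B (γ t c) w with hR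
  have hRc : ContinuousOn R (Icc 0 1) :=
    (hDγ.clm_apply continuousOn_const).sub (continuousOn_id.smul (hBc.clm_apply continuousOn_const))
  have hDG : ∀ s ∈ Icc (0:ℝ) 1, fderiv ℂ (fun z : W × V => B (γ s z) z.1) c (w, 0) =
      fderiv ℂ B (γ s c) (fderiv ℂ (γ s) c (w, 0)) c.1 + B (γ s c) w := fun s hs => by
    have h1 := ((h.diffAt (g.mem s hs c hc)).hasFDerivAt.comp c
      ((g.hol s hs).differentiableAt hn).hasFDerivAt).clm_apply (hasFDerivAt_fst (p := c))
    have h2 := h1.fderiv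
    simp only [Function.comp_def] at h2
    rw [h2]
    simp [add_comm]
  have key : ∀ t ∈ Icc (0:ℝ) 1, R t = ∫ s in (0:ℝ)..t, fderiv ℂ B (γ s c) (R s) c.1 := by
    intro t ht
    have hsub : uIcc (0:ℝ) t ⊆ Icc 0 1 := uIcc_subset_Icc h0 ht
    have i1 : IntervalIntegrable (fun s => fderiv ℂ (fun z : W × V => B (γ s z) z.1) c)
        volume 0 t := intervalIntegrable_of_contOn
      (continuousOn_fderiv_param (G := fun s z => B (γ s z) z.1) isOpen_dom (h.G_hol g)
        (h.G_lip g) hc) h0 ht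
    have e1 : fderiv ℂ (γ t) c (w, 0) = ∫ s in (0:ℝ)..t,
        (fderiv ℂ B (γ s c) (fderiv ℂ (γ s) c (w, 0)) c.1 + B (γ s c) w) := by
      have h1 : γ t =ᶠ[𝓝 c] pic B γ t := by
        filter_upwards [hn] with z hz using hf t ht z hz
      rw [h1.fderiv_eq, (h.pic_hasFDerivAt g ht hc).fderiv, add_apply,
        ContinuousLinearMap.intervalIntegral_apply i1]
      simp only [ContinuousLinearMap.coe_snd', zero_add]
      exact intervalIntegral.integral_congr fun s hs => hDG s (hsub hs)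
    have c2 : ContinuousOn (fun s : ℝ => s • fderiv ℂ B (γ s c) (B (γ s c) c.1) w + B (γ s c) w)
        (Icc 0 1) :=
      (continuousOn_id.smul ((hDBc.clm_apply (hBc.clm_apply continuousOn_const)).clm_apply
        continuousOn_const)).add (hBc.clm_apply continuousOn_const)
    have e2 : ∫ s in (0:ℝ)..t, (s • fderiv ℂ B (γ s c) (B (γ s c) c.1) w + B (γ s c) w) =
        t • B (γ t c) w - (0:ℝ) • B (γ 0 c) w := by
      refine intervalIntegral.integral_eq_sub_of_hasDerivAt_of_le (f := fun s => s • B (γ s c) w)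
        ht.1 ?_ (fun s hs => ?_) (intervalIntegrable_of_contOn c2 h0 ht)
      · exact (continuousOn_id.smul (hBc.clm_apply continuousOn_const)).mono
          (Icc_subset_Icc_right ht.2)
      · have hs' : s ∈ Ioo (0:ℝ) 1 := ⟨hs.1, hs.2.trans_le ht.2⟩
        have h1 := ((h.diffAt (g.mem s (Ioo_subset_Icc_self hs') c hc)).hasFDerivAt.clm_apply
          (hasFDerivAt_const w _)).restrictScalars ℝ
        have h2 := h1.comp_hasDerivAt s (h.time_deriv g hf hc hs')
        have h3 := (hasDerivAt_id' s).fun_smul h2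
        simpa [Function.comp_def] using h3
    have c1 : ContinuousOn (fun s : ℝ =>
        fderiv ℂ B (γ s c) (fderiv ℂ (γ s) c (w, 0)) c.1 + B (γ s c) w) (Icc 0 1) :=
      ((hDBc.clm_apply (hDγ.clm_apply continuousOn_const)).clm_apply
        continuousOn_const).add (hBc.clm_apply continuousOn_const)
    rw [zero_smul, sub_zero] at e2
    have e3 : R t = fderiv ℂ (γ t) c (w, 0) - t • B (γ t c) w := rfl
    rw [e3, e1, ← e2, ← intervalIntegral.integral_sub (intervalIntegrable_of_contOn c1 h0 ht)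
      (intervalIntegrable_of_contOn c2 h0 ht)]
    refine intervalIntegral.integral_congr fun s hs => ?_
    simp only [hR]
    rw [hcomm _ (hmaps (hsub hs)) c.1 w, map_sub, sub_apply,
      ContinuousLinearMap.map_smul_of_tower, smul_apply]
    abel
  obtain ⟨C, hC⟩ := isCompact_Icc.exists_bound_of_continuousOn hRc
  have hz : R 1 = 0 := by
    refine zero_of_half hC (fun D hD t ht => ?_) (by simp)
    have hD0 : 0 ≤ D := (norm_nonneg _).trans (hD 0 h0)
    rw [key t ht]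
    refine (intervalIntegral.norm_integral_le_of_norm_le_const (C := D / 2)
      fun s hs => ?_).trans ?_
    · have hs' := uIcc_subset_Icc h0 ht (uIoc_subset_uIcc hs)
      have h2 : M / r * ρ ≤ 1 / 2 := by
        rw [div_mul_eq_mul_div, div_le_iff₀ hr]; linarith [h.hs]
      calc _ ≤ ‖fderiv ℂ B (γ s c)‖ * ‖R s‖ * ‖c.1‖ := ContinuousLinearMap.le_opNorm₂ _ _ _
        _ ≤ M / r * D * ρ := by
          gcongr
          · exact h.fderiv_le (g.mem s hs' c hc)
          · exact hD s hs'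
          · exact norm_fst_le hc
        _ = M / r * ρ * D := by ring
        _ ≤ 1 / 2 * D := by gcongr
        _ = D / 2 := by ring
    · rw [sub_zero, abs_of_nonneg ht.1]
      nlinarith [ht.2]
  simpa [hR, sub_eq_zero] using hz

/-- Joint local flow of a commuting family of holomorphic vector fields. -/
theorem exists_flow [FiniteDimensional ℂ V] (B : V → W →L[ℂ] V) (p : V)
    (hd : ∀ᶠ q in 𝓝 p, DifferentiableAt ℂ B q)
    (hcomm : ∀ᶠ q in 𝓝 p, ∀ v w : W, fderiv ℂ B q (B q v) w = fderiv ℂ B q (B q w) v) :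
    ∃ Ψ : W × V → V, (∀ᶠ z in 𝓝 ((0 : W), p), DifferentiableAt ℂ Ψ z ∧
      ∀ w, fderiv ℂ Ψ z (w, 0) = B (Ψ z) w) ∧ ∀ᶠ y in 𝓝 p, Ψ (0, y) = y := by
  have : CompleteSpace V := FiniteDimensional.complete ℂ V
  have h2 : ∀ᶠ q in 𝓝 p, ‖B q‖ < ‖B p‖ + 1 :=
    hd.self_of_nhds.continuousAt.norm.eventually (gt_mem_nhds (by linarith))
  obtain ⟨R, hR, hb⟩ := Metric.eventually_nhds_iff_ball.mp (hd.and (hcomm.and h2))
  have hR4 : 4 * (R / 4) = R := by ring
  have hM : 0 < ‖B p‖ + 1 := by positivity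
  have h : Dat B p (R / 4) (R / 8 / (‖B p‖ + 1)) (‖B p‖ + 1) := by
    refine ⟨by positivity, by positivity, ?_, ?_, ?_⟩
    · rw [hR4]; exact fun q hq => (hb q hq).1.differentiableWithinAt
    · rw [hR4]; exact fun q hq => (hb q hq).2.2.le
    · apply le_of_eq; field_simp; ring
  obtain ⟨γ, g, hf⟩ := h.exists_fixed
  have h1 : (1:ℝ) ∈ Icc (0:ℝ) 1 := by simp
  have hmem : ((0 : W), p) ∈ dom p (R / 4) (R / 8 / (‖B p‖ + 1)) :=
    ⟨mem_ball_self h.hρ, mem_ball_self h.hr⟩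
  refine ⟨γ 1, ?_, ?_⟩
  · filter_upwards [isOpen_dom.mem_nhds hmem] with z hz
    refine ⟨(g.hol 1 h1).differentiableAt (isOpen_dom.mem_nhds hz), fun w => ?_⟩
    exact h.pde g hf (by rw [hR4]; exact fun q hq => (hb q hq).2.1) hz w
  · filter_upwards [ball_mem_nhds p h.hr] with y hy
    rw [hf 1 h1 (0, y) ⟨mem_ball_self h.hρ, hy⟩]
    simp [pic]

end P278F
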