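import Vale.Agent.P278F.Hol

/-! Picard iteration with holomorphic parameters. -/

open Metric Set Filter Topology MeasureTheory

namespace P278F

section Int

variable {E F : Type*} [NormedAddCommGroup E] [NormedSpace ℂ E]
  [NormedAddCommGroup F] [NormedSpace ℂ F]

omit [NormedSpace ℂ F] in
theorem continuousOn_of_lip {g : ℝ → F} {K : ℝ}
    (h : ∀ s ∈ Icc (0:ℝ) 1, ∀ t ∈ Icc (0:ℝ) 1, ‖g t - g s‖ ≤ K * |t - s|) :
    ContinuousOn g (Icc 0 1) := by
  intro s hs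
  rw [ContinuousWithinAt, tendsto_iff_norm_sub_tendsto_zero]
  have h1 : Tendsto (fun t => K * |t - s|) (𝓝[Icc 0 1] s) (𝓝 0) := by
    have : Continuous fun t : ℝ => K * |t - s| := by fun_prop
    simpa using (this.tendsto s).mono_left nhdsWithin_le_nhds
  refine squeeze_zero' (Eventually.of_forall fun _ => norm_nonneg _) ?_ h1
  filter_upwards [self_mem_nhdsWithin] with t ht using h s hs t ht

omit [NormedSpace ℂ F] in
theorem intervalIntegrable_of_contOn {g : ℝ → F} (h : ContinuousOn g (Icc 0 1)) {s t : ℝ}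
    (hs : s ∈ Icc (0:ℝ) 1) (ht : t ∈ Icc (0:ℝ) 1) : IntervalIntegrable g volume s t :=
  (h.mono (uIcc_subset_Icc hs ht)).intervalIntegrable

theorem continuousOn_fderiv_param {G : ℝ → E → F} {U : Set E} (hU : IsOpen U) {K : ℝ}
    (hd : ∀ s ∈ Icc (0:ℝ) 1, DifferentiableOn ℂ (G s) U)
    (hl : ∀ s ∈ Icc (0:ℝ) 1, ∀ t ∈ Icc (0:ℝ) 1, ∀ z ∈ U, ‖G t z - G s z‖ ≤ K * |t - s|)
    {c : E} (hc : c ∈ U) : ContinuousOn (fun s => fderiv ℂ (G s) c) (Icc 0 1) := by
  obtain ⟨R, hR, hRU⟩ := Metric.isOpen_iff.mp hU c hc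
  refine continuousOn_of_lip (K := 2 * K / R) fun s hs t ht => ?_
  rw [← fderiv_sub ((hd t ht).differentiableAt (hU.mem_nhds hc))
    ((hd s hs).differentiableAt (hU.mem_nhds hc))]
  refine (norm_fderiv_le hR (((hd t ht).sub (hd s hs)).mono hRU)
    (fun z hz => hl s hs t ht z (hRU hz))).trans_eq ?_
  ring

theorem hasFDerivAt_integral_param [CompleteSpace F] {G : ℝ → E → F} {U : Set E} (hU : IsOpen U)
    {K M : ℝ} (hd : ∀ s ∈ Icc (0:ℝ) 1, DifferentiableOn ℂ (G s) U)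
    (hM : ∀ s ∈ Icc (0:ℝ) 1, ∀ z ∈ U, ‖G s z‖ ≤ M)
    (hl : ∀ s ∈ Icc (0:ℝ) 1, ∀ t ∈ Icc (0:ℝ) 1, ∀ z ∈ U, ‖G t z - G s z‖ ≤ K * |t - s|)
    {c : E} (hc : c ∈ U) {t : ℝ} (ht : t ∈ Icc (0:ℝ) 1) :
    HasFDerivAt (fun z => ∫ s in (0:ℝ)..t, G s z) (∫ s in (0:ℝ)..t, fderiv ℂ (G s) c) c := by
  obtain ⟨R, hR, hRU⟩ := Metric.isOpen_iff.mp hU c hc
  have h0 : (0:ℝ) ∈ Icc (0:ℝ) 1 := by simp
  have hsub : uIoc (0:ℝ) t ⊆ Icc 0 1 := uIoc_subset_uIcc.trans (uIcc_subset_Icc h0 ht)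
  have hb : ∀ z ∈ ball c (R / 2), ball z (R / 2) ⊆ U := fun z hz w hw => hRU (by
    rw [mem_ball] at *
    linarith [dist_triangle w z c])
  have hzU : ∀ z ∈ ball c (R / 2), z ∈ U := fun z hz => hb z hz (mem_ball_self (by linarith))
  have hcont : ∀ z ∈ U, ContinuousOn (fun s => G s z) (Icc 0 1) := fun z hz =>
    continuousOn_of_lip fun s hs t ht => hl s hs t ht z hz
  refine intervalIntegral.hasFDerivAt_integral_of_dominated_of_fderiv_le (𝕜 := ℂ)
    (F := fun z s => G s z) (F' := fun z s => fderiv ℂ (G s) z) (bound := fun _ => 2 * M / (R / 2))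
    (ball_mem_nhds c (half_pos hR)) ?_ (intervalIntegrable_of_contOn (hcont c hc) h0 ht) ?_ ?_
    intervalIntegrable_const ?_
  · filter_upwards [hU.mem_nhds hc] with z hz
    exact ((hcont z hz).mono hsub).aestronglyMeasurable measurableSet_uIoc
  · exact ((continuousOn_fderiv_param hU hd hl hc).mono hsub).aestronglyMeasurable
      measurableSet_uIoc
  · refine Eventually.of_forall fun s hs z hz => ?_
    exact norm_fderiv_le (half_pos hR) ((hd s (hsub hs)).mono (hb z hz))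
      fun w hw => hM s (hsub hs) w (hb z hz hw)
  · refine Eventually.of_forall fun s hs z hz => ?_
    exact ((hd s (hsub hs)).differentiableAt (hU.mem_nhds (hzU z hz))).hasFDerivAt

end Int

variable {V W : Type*} [NormedAddCommGroup V] [NormedSpace ℂ V]
  [NormedAddCommGroup W] [NormedSpace ℂ W]

/-- Data for the iteration. -/
structure Dat (B : V → W →L[ℂ] V) (p : V) (r ρ M : ℝ) : Prop where
  hr : 0 < r
  hρ : 0 < ρ
  hd : DifferentiableOn ℂ B (ball p (4 * r))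
  hM : ∀ q ∈ ball p (4 * r), ‖B q‖ ≤ M
  hs : M * ρ ≤ r / 2

def dom (p : V) (r ρ : ℝ) : Set (W × V) := ball (0 : W) ρ ×ˢ ball p r

structure Good (p : V) (r ρ : ℝ) (γ : ℝ → W × V → V) : Prop where
  hol : ∀ t ∈ Icc (0:ℝ) 1, DifferentiableOn ℂ (γ t) (dom p r ρ)
  mem : ∀ t ∈ Icc (0:ℝ) 1, ∀ z ∈ dom p r ρ, γ t z ∈ closedBall p (3 * r / 2)
  lip : ∀ s ∈ Icc (0:ℝ) 1, ∀ t ∈ Icc (0:ℝ) 1, ∀ z ∈ dom p r ρ, ‖γ t z - γ s z‖ ≤ r * |t - s|

noncomputable def pic (B : V → W →L[ℂ] V) (γ : ℝ → W × V → V) (t : ℝ) (z : W × V) : V :=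
  z.2 + ∫ s in (0:ℝ)..t, B (γ s z) z.1

variable {B : V → W →L[ℂ] V} {p : V} {r ρ M : ℝ}

omit [NormedSpace ℂ V] [NormedSpace ℂ W] in
theorem isOpen_dom : IsOpen (dom (W := W) p r ρ) := isOpen_ball.prod isOpen_ball

theorem Dat.M_nonneg (h : Dat B p r ρ M) : 0 ≤ M :=
  (norm_nonneg _).trans (h.hM p (mem_ball_self (by linarith [h.hr])))

theorem Dat.sub4 (h : Dat B p r ρ M) : closedBall p (3 * r / 2) ⊆ ball p (4 * r) :=
  closedBall_subset_ball (by linarith [h.hr])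

theorem Dat.diffAt (h : Dat B p r ρ M) {q : V} (hq : q ∈ closedBall p (3 * r / 2)) :
    DifferentiableAt ℂ B q := h.hd.differentiableAt (isOpen_ball.mem_nhds (h.sub4 hq))

theorem Dat.fderiv_le (h : Dat B p r ρ M) {q : V} (hq : q ∈ closedBall p (3 * r / 2)) :
    ‖fderiv ℂ B q‖ ≤ M / r := by
  have hr := h.hr
  have hb : ball q (2 * r) ⊆ ball p (4 * r) := fun w hw => by
    rw [mem_ball] at *
    rw [mem_closedBall] at hq
    linarith [dist_triangle w q p]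
  refine (norm_fderiv_le (by linarith) (h.hd.mono hb) fun w hw => h.hM w (hb hw)).trans_eq ?_
  field_simp

theorem Dat.lipB (h : Dat B p r ρ M) {q q' : V} (hq : q ∈ closedBall p (3 * r / 2))
    (hq' : q' ∈ closedBall p (3 * r / 2)) {x : W} (hx : ‖x‖ ≤ ρ) :
    ‖B q x - B q' x‖ ≤ ‖q - q'‖ / 2 := by
  have hr := h.hr
  have hM := h.M_nonneg
  have h1 : ‖B q - B q'‖ ≤ M / r * ‖q - q'‖ :=
    (convex_closedBall p (3 * r / 2)).norm_image_sub_le_of_norm_fderiv_le (𝕜 := ℂ)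
      (fun w hw => h.diffAt hw) (fun w hw => h.fderiv_le hw) hq' hq
  have h2 : M / r * ρ ≤ 1 / 2 := by
    rw [div_mul_eq_mul_div, div_le_iff₀ hr]; linarith [h.hs]
  calc ‖B q x - B q' x‖ = ‖(B q - B q') x‖ := by simp
    _ ≤ ‖B q - B q'‖ * ‖x‖ := ContinuousLinearMap.le_opNorm _ _
    _ ≤ (M / r * ‖q - q'‖) * ρ := by gcongr
    _ = (M / r * ρ) * ‖q - q'‖ := by ring
    _ ≤ 1 / 2 * ‖q - q'‖ := by gcongr
    _ = _ := by ring

omit [NormedSpace ℂ V] [NormedSpace ℂ W] in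
theorem norm_fst_le {z : W × V} (hz : z ∈ dom p r ρ) : ‖z.1‖ ≤ ρ :=
  (mem_ball_zero_iff.mp hz.1).le

theorem Dat.bound (h : Dat B p r ρ M) {q : V} (hq : q ∈ closedBall p (3 * r / 2)) {x : W}
    (hx : ‖x‖ ≤ ρ) : ‖B q x‖ ≤ r / 2 := by
  have hM := h.M_nonneg
  calc ‖B q x‖ ≤ ‖B q‖ * ‖x‖ := ContinuousLinearMap.le_opNorm _ _
    _ ≤ M * ρ := by gcongr; exact h.hM q (h.sub4 hq)
    _ ≤ _ := h.hs

theorem Dat.G_hol (h : Dat B p r ρ M) {γ : ℝ → W × V → V} (g : Good p r ρ γ) :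
    ∀ s ∈ Icc (0:ℝ) 1, DifferentiableOn ℂ (fun z => B (γ s z) z.1) (dom p r ρ) := fun s hs =>
  (h.hd.comp (g.hol s hs) fun z hz => h.sub4 (g.mem s hs z hz)).clm_apply differentiableOn_fst

theorem Dat.G_bd (h : Dat B p r ρ M) {γ : ℝ → W × V → V} (g : Good p r ρ γ) :
    ∀ s ∈ Icc (0:ℝ) 1, ∀ z ∈ dom p r ρ, ‖B (γ s z) z.1‖ ≤ r / 2 := fun s hs z hz =>
  h.bound (g.mem s hs z hz) (norm_fst_le hz)

theorem Dat.G_lip (h : Dat B p r ρ M) {γ : ℝ → W × V → V} (g : Good p r ρ γ) :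
    ∀ s ∈ Icc (0:ℝ) 1, ∀ t ∈ Icc (0:ℝ) 1, ∀ z ∈ dom p r ρ,
      ‖B (γ t z) z.1 - B (γ s z) z.1‖ ≤ r / 2 * |t - s| := fun s hs t ht z hz => by
  have h1 := h.lipB (g.mem t ht z hz) (g.mem s hs z hz) (norm_fst_le hz)
  have h2 := g.lip s hs t ht z hz
  linarith

theorem Dat.G_cont (h : Dat B p r ρ M) {γ : ℝ → W × V → V} (g : Good p r ρ γ) {z : W × V}
    (hz : z ∈ dom p r ρ) : ContinuousOn (fun s => B (γ s z) z.1) (Icc 0 1) :=
  continuousOn_of_lip fun s hs t ht => h.G_lip g s hs t ht z hz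

theorem Dat.pic_hasFDerivAt [CompleteSpace V] (h : Dat B p r ρ M) {γ : ℝ → W × V → V}
    (g : Good p r ρ γ) {t : ℝ} (ht : t ∈ Icc (0:ℝ) 1) {c : W × V} (hc : c ∈ dom p r ρ) :
    HasFDerivAt (pic B γ t) (ContinuousLinearMap.snd ℂ W V +
      ∫ s in (0:ℝ)..t, fderiv ℂ (fun z => B (γ s z) z.1) c) c :=
  hasFDerivAt_snd.add (hasFDerivAt_integral_param (G := fun s z => B (γ s z) z.1) isOpen_dom
    (h.G_hol g) (h.G_bd g) (h.G_lip g) hc ht)

theorem Dat.good_pic [CompleteSpace V] (h : Dat B p r ρ M) {γ : ℝ → W × V → V}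
    (g : Good p r ρ γ) : Good p r ρ (pic B γ) := by
  have h0 : (0:ℝ) ∈ Icc (0:ℝ) 1 := by simp
  have hr := h.hr
  refine ⟨fun t ht c hc => (h.pic_hasFDerivAt g ht hc).differentiableAt.differentiableWithinAt,
    fun t ht z hz => ?_, fun s hs t ht z hz => ?_⟩
  · have h1 : ‖∫ s in (0:ℝ)..t, B (γ s z) z.1‖ ≤ r / 2 * |t - 0| :=
      intervalIntegral.norm_integral_le_of_norm_le_const fun s hs =>
        h.G_bd g s (uIcc_subset_Icc h0 ht (uIoc_subset_uIcc hs)) z hz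
    have h2 : ‖z.2 - p‖ < r := mem_ball_iff_norm.mp hz.2
    rw [sub_zero, abs_of_nonneg ht.1] at h1
    rw [mem_closedBall_iff_norm, pic, add_sub_right_comm]
    refine (norm_add_le _ _).trans ?_
    nlinarith [ht.2]
  · have h1 : pic B γ t z - pic B γ s z = ∫ u in s..t, B (γ u z) z.1 := by
      rw [pic, pic, add_sub_add_left_eq_sub]
      exact intervalIntegral.integral_interval_sub_left
        (intervalIntegrable_of_contOn (h.G_cont g hz) h0 ht)
        (intervalIntegrable_of_contOn (h.G_cont g hz) h0 hs)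
    rw [h1]
    refine (intervalIntegral.norm_integral_le_of_norm_le_const fun u hu =>
      h.G_bd g u (uIcc_subset_Icc hs ht (uIoc_subset_uIcc hu)) z hz).trans ?_
    gcongr
    linarith

theorem Dat.pic_contract (h : Dat B p r ρ M) {γ δ : ℝ → W × V → V} (g : Good p r ρ γ)
    (d : Good p r ρ δ) {z : W × V} (hz : z ∈ dom p r ρ) {C : ℝ}
    (hC : ∀ s ∈ Icc (0:ℝ) 1, ‖γ s z - δ s z‖ ≤ C) {t : ℝ} (ht : t ∈ Icc (0:ℝ) 1) :
    ‖pic B γ t z - pic B δ t z‖ ≤ C / 2 := by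
  have h0 : (0:ℝ) ∈ Icc (0:ℝ) 1 := by simp
  have hC0 : 0 ≤ C := (norm_nonneg _).trans (hC 0 h0)
  rw [pic, pic, add_sub_add_left_eq_sub, ← intervalIntegral.integral_sub
    (intervalIntegrable_of_contOn (h.G_cont g hz) h0 ht)
    (intervalIntegrable_of_contOn (h.G_cont d hz) h0 ht)]
  refine (intervalIntegral.norm_integral_le_of_norm_le_const (C := C / 2) fun s hs => ?_).trans ?_
  · have hs' := uIcc_subset_Icc h0 ht (uIoc_subset_uIcc hs)
    have h1 := h.lipB (g.mem s hs' z hz) (d.mem s hs' z hz) (norm_fst_le hz)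
    linarith [hC s hs']
  · rw [sub_zero, abs_of_nonneg ht.1]
    nlinarith [ht.2]

/-- Existence of a fixed point of the Picard operator. -/
theorem Dat.exists_fixed [CompleteSpace V] (h : Dat B p r ρ M) :
    ∃ γ : ℝ → W × V → V, Good p r ρ γ ∧
      ∀ t ∈ Icc (0:ℝ) 1, ∀ z ∈ dom p r ρ, γ t z = pic B γ t z := by
  have hr := h.hr
  let γ : ℕ → ℝ → W × V → V := fun n => (pic B)^[n] fun _ z => z.2
  have hsucc : ∀ n, γ (n + 1) = pic B (γ n) := fun n => Function.iterate_succ_apply' _ _ _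
  have hg : ∀ n, Good p r ρ (γ n) := by
    intro n
    induction n with
    | zero =>
      refine ⟨fun t _ => differentiableOn_snd, fun t _ z hz => ?_, fun s _ t _ z _ => ?_⟩
      · exact ball_subset_closedBall (ball_subset_ball (by linarith) hz.2)
      · simp only [γ, Function.iterate_zero, id, sub_self, norm_zero]; positivity
    | succ n ih => rw [hsucc]; exact h.good_pic ih
  have hstep : ∀ z ∈ dom p r ρ, ∀ n, ∀ t ∈ Icc (0:ℝ) 1,
      ‖γ n t z - γ (n + 1) t z‖ ≤ 6 * r / 2 / 2 ^ n := by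
    intro z hz n
    induction n with
    | zero =>
      intro t ht
      have h1 := mem_closedBall.mp ((hg 0).mem t ht z hz)
      have h2 := mem_closedBall.mp ((hg 1).mem t ht z hz)
      rw [← dist_eq_norm]
      have := dist_triangle_right (γ 0 t z) (γ 1 t z) p
      simp only [zero_add, pow_zero, div_one]
      linarith
    | succ n ih =>
      intro t ht
      have := h.pic_contract (hg n) (hg (n + 1)) hz ih ht
      rw [← hsucc, ← hsucc] at this
      refine this.trans_eq ?_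
      rw [pow_succ]; field_simp
  let δ : ℝ → W × V → V := fun t z => limUnder atTop fun n => γ n t z
  have hlim : ∀ t ∈ Icc (0:ℝ) 1, ∀ z ∈ dom p r ρ,
      Tendsto (fun n => γ n t z) atTop (𝓝 (δ t z)) := fun t ht z hz =>
    (cauchySeq_of_le_geometric_two (C := 6 * r)
      fun n => by rw [dist_eq_norm]; exact hstep z hz n t ht).tendsto_limUnder
  have hrate : ∀ t ∈ Icc (0:ℝ) 1, ∀ z ∈ dom p r ρ, ∀ n, ‖γ n t z - δ t z‖ ≤ 6 * r / 2 ^ n :=
    fun t ht z hz n => by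
      rw [← dist_eq_norm]
      exact dist_le_of_le_geometric_two_of_tendsto (C := 6 * r)
        (fun n => by rw [dist_eq_norm]; exact hstep z hz n t ht) (hlim t ht z hz) n
  have he : Tendsto (fun n : ℕ => 6 * r / 2 ^ n) atTop (𝓝 0) :=
    tendsto_const_nhds.div_atTop (tendsto_pow_atTop_atTop_of_one_lt one_lt_two)
  have hδ : Good p r ρ δ := by
    refine ⟨fun t ht c hc => ?_, fun t ht z hz => ?_, fun s hs t ht z hz => ?_⟩
    · obtain ⟨R, hR, hRU⟩ := Metric.isOpen_iff.mp isOpen_dom c hc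
      exact (differentiableAt_of_unif hR (fun n => ((hg n).hol t ht).mono hRU) he
        fun n z hz => hrate t ht z (hRU hz) n).differentiableWithinAt
    · exact isClosed_closedBall.mem_of_tendsto (hlim t ht z hz)
        (Eventually.of_forall fun n => (hg n).mem t ht z hz)
    · exact le_of_tendsto' ((hlim t ht z hz).sub (hlim s hs z hz)).norm
        fun n => (hg n).lip s hs t ht z hz
  refine ⟨δ, hδ, fun t ht z hz => ?_⟩
  refine tendsto_nhds_unique ((hlim t ht z hz).comp (tendsto_add_atTop_nat 1)) ?_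
  rw [tendsto_iff_norm_sub_tendsto_zero]
  refine squeeze_zero (fun _ => norm_nonneg _) (fun n => ?_) (by simpa using he.div_const 2)
  have := h.pic_contract (hg n) hδ hz (fun s hs => hrate s hs z hz n) ht
  rw [← hsucc] at this
  exact this

end P278F
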