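import Vale.Agent.P278F.Comm

/-! Holomorphic Frobenius theorem for a field of projectors. -/

open Metric Set Filter Topology

namespace P278F

variable {V : Type*} [NormedAddCommGroup V] [NormedSpace ℂ V]

theorem eq_zero_of_close {A A0 : V →L[ℂ] V} (h : ‖A - A0‖ < 1) {z : V} (h1 : A z = z)
    (h2 : A0 z = 0) : z = 0 := by
  have h3 : ‖z‖ ≤ ‖A - A0‖ * ‖z‖ := by
    have := (A - A0).le_opNorm z
    rwa [sub_apply, h1, h2, sub_zero] at this
  by_contra hz
  have := norm_pos_iff.mpr hz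
  nlinarith

/-- A commuting frame of an involutive distribution. -/
theorem exists_frame [FiniteDimensional ℂ V] (P : V → V →L[ℂ] V) (p : V)
    (hd : ∀ᶠ q in 𝓝 p, DifferentiableAt ℂ P q) (hP : ∀ᶠ q in 𝓝 p, ∀ v, P q (P q v) = P q v)
    (hint : ∀ᶠ q in 𝓝 p, ∀ v w, P q (fderiv ℂ P q (P q v) w - fderiv ℂ P q (P q w) v) =
      fderiv ℂ P q (P q v) w - fderiv ℂ P q (P q w) v) :
    ∃ B : V → V →L[ℂ] V, (∀ᶠ q in 𝓝 p, DifferentiableAt ℂ B q) ∧
      (∀ᶠ q in 𝓝 p, ∀ v w : V, fderiv ℂ B q (B q v) w = fderiv ℂ B q (B q w) v) ∧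
      (∀ᶠ q in 𝓝 p, ∀ v, B q (P p (P q v)) = P q v) ∧ B p = P p := by
  have : CompleteSpace V := FiniteDimensional.complete ℂ V
  have hP0 : P p * P p = P p := by ext v; exact hP.self_of_nhds v
  set Mq : V → V →L[ℂ] V := fun q => P p * P q * P p + (1 - P p) with hMq
  have hMp : Mq p = 1 := by simp [hMq, hP0]
  have hMd : ∀ᶠ q in 𝓝 p, DifferentiableAt ℂ Mq q := by
    filter_upwards [hd] with q hq
    exact ((hq.const_mul _).mul_const _).add_const _
  have hMu : ∀ᶠ q in 𝓝 p, IsUnit (Mq q) :=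
    hMd.self_of_nhds.continuousAt.eventually
      (Units.isOpen.mem_nhds (show IsUnit (Mq p) by rw [hMp]; exact isUnit_one))
  set a : V → V →L[ℂ] V := fun q => P p * Ring.inverse (Mq q) with ha
  have had : ∀ᶠ q in 𝓝 p, DifferentiableAt ℂ a q := by
    filter_upwards [hMd, hMu] with q h1 h2
    exact ((differentiableAt_inverse h2).comp q h1).const_mul _
  have hclose : ∀ᶠ q in 𝓝 p, ‖P q - P p‖ < 1 := by
    have h1 : ContinuousAt (fun q => ‖P q - P p‖) p :=
      (hd.self_of_nhds.continuousAt.sub continuousAt_const).norm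
    exact h1.eventually (gt_mem_nhds (by simp))
  have hPB : ∀ᶠ q in 𝓝 p, P p * (P q * a q) = P p := by
    filter_upwards [hMu] with q hq
    have h1 : P p * Mq q = P p * P q * P p := by
      simp only [hMq, mul_add, mul_sub, ← mul_assoc, hP0, mul_one, sub_self, add_zero]
    simp only [ha, ← mul_assoc]
    rw [← h1, mul_assoc, Ring.mul_inverse_cancel _ hq, mul_one]
  have haP : ∀ᶠ q in 𝓝 p, a q * P p = a q := by
    filter_upwards [hMu] with q hq
    have h1 : Mq q * P p = P p * Mq q := by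
      simp only [hMq, mul_add, add_mul, mul_sub, sub_mul, mul_assoc, hP0, mul_one, one_mul]
      simp only [← mul_assoc, hP0]
    have h2 : P p * Ring.inverse (Mq q) = Ring.inverse (Mq q) * P p := by
      calc P p * Ring.inverse (Mq q)
          = Ring.inverse (Mq q) * Mq q * P p * Ring.inverse (Mq q) := by
            rw [Ring.inverse_mul_cancel _ hq, one_mul]
        _ = Ring.inverse (Mq q) * P p * (Mq q * Ring.inverse (Mq q)) := by
            rw [mul_assoc _ (Mq q), h1]; simp only [mul_assoc]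
        _ = _ := by rw [Ring.mul_inverse_cancel _ hq, mul_one]
    simp only [ha]
    rw [h2, mul_assoc, hP0]
  have hBd : ∀ᶠ q in 𝓝 p, DifferentiableAt ℂ (fun q => P q * a q) q := by
    filter_upwards [hd, had] with q h1 h2 using h1.mul h2
  refine ⟨fun q => P q * a q, hBd, ?_, ?_, by simp [ha, hMp, hP0]⟩
  · filter_upwards [hd, had, hBd, hP, hint, hclose, hPB.eventually_nhds] with
      q h1 h2 h3 h4 h5 h6 h7 v w
    have e1 : ∀ u x, fderiv ℂ (fun q => P q * a q) q u x =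
        P q (fderiv ℂ a q u x) + fderiv ℂ P q u (a q x) := fun u x => by
      rw [fderiv_fun_mul' h1 h2]; simp
    have e2 : ∀ u x, P p (fderiv ℂ (fun q => P q * a q) q u x) = 0 := fun u x => by
      have h8 : fderiv ℂ (fun q => P p * (P q * a q)) q = 0 := by
        rw [Filter.EventuallyEq.fderiv_eq (f := fun _ => P p) h7]; simp
      rw [fderiv_const_mul h3] at h8
      have := congrArg (fun A => A u x) h8
      simpa using this
    rw [← sub_eq_zero]
    refine eq_zero_of_close h6 ?_ (by rw [map_sub, e2, e2, sub_zero])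
    have h9 := h5 (a q v) (a q w)
    rw [e1, e1]
    simp only [mul_apply_eq_comp]
    rw [add_sub_add_comm, map_add, h9, map_sub, h4, h4]
  · filter_upwards [hP, hclose, hPB, haP] with q h4 h6 h7 h8 v
    have e1 : (P q * a q) (P p (P q v)) = P q (a q (P q v)) := by
      have := congrArg (fun A => A (P q v)) h8
      simp only [mul_apply_eq_comp] at this ⊢
      rw [this]
    rw [e1, ← sub_eq_zero]
    refine eq_zero_of_close h6 (by rw [map_sub, h4, h4]) ?_
    have := congrArg (fun A => A (P q v)) h7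
    simp only [mul_apply_eq_comp] at this
    rw [map_sub, this, sub_self]

/-- A holomorphic map with identity derivative has a holomorphic local inverse. -/
theorem exists_inverse [FiniteDimensional ℂ V] {Θ : V → V} {p : V}
    (hd : ∀ᶠ z in 𝓝 p, DifferentiableAt ℂ Θ z) (h1 : fderiv ℂ Θ p = 1) (hp : Θ p = p) :
    ∃ χ : V → V, χ p = p ∧ ∀ᶠ q in 𝓝 p, DifferentiableAt ℂ χ q ∧ Θ (χ q) = q ∧
      ∀ v, fderiv ℂ χ q (fderiv ℂ Θ (χ q) v) = v := by
  have : CompleteSpace V := FiniteDimensional.complete ℂ V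
  have hc : ContDiffAt ℂ (1 : ℕ) Θ p := contDiffAt_nat hd 1
  have hf : HasFDerivAt Θ ((ContinuousLinearEquiv.refl ℂ V : V ≃L[ℂ] V) : V →L[ℂ] V) p := by
    have := hd.self_of_nhds.hasFDerivAt
    rw [h1] at this
    exact this
  have hn : ((1 : ℕ) : WithTop ℕ∞) ≠ 0 := by simp
  have hs := hc.hasStrictFDerivAt' hf hn
  set χ := hc.localInverse hf hn with hχ
  have hχp : χ p = p := by
    have := hc.localInverse_apply_image hf hn
    rwa [hp] at this
  have hχc : ContDiffAt ℂ (1 : ℕ) χ p := by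
    have := hc.to_localInverse hf hn
    rwa [hp] at this
  have hχd : ∀ᶠ q in 𝓝 p, DifferentiableAt ℂ χ q := by
    filter_upwards [hχc.eventually (by simp)] with q hq using hq.differentiableAt hn
  have hr : ∀ᶠ q in 𝓝 p, Θ (χ q) = q := by
    have := hs.eventually_right_inverse
    rwa [hp] at this
  have hl : ∀ᶠ z in 𝓝 p, χ (Θ z) = z := hs.eventually_left_inverse
  have ht : Tendsto χ (𝓝 p) (𝓝 p) := by
    have := hχc.continuousAt.tendsto
    rwa [hχp] at this
  refine ⟨χ, hχp, ?_⟩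
  filter_upwards [hχd, hr, ht.eventually hd, ht.eventually hl.eventually_nhds] with q h2 h3 h4 h5
  refine ⟨h2, h3, fun v => ?_⟩
  have h6 : HasFDerivAt χ (fderiv ℂ χ q) (Θ (χ q)) := by rw [h3]; exact h2.hasFDerivAt
  have h7 := (h6.comp (χ q) h4.hasFDerivAt).fderiv
  rw [Filter.EventuallyEq.fderiv_eq (f₁ := χ ∘ Θ) (f := id) h5, fderiv_id] at h7
  exact (congrArg (fun A => A v) h7).symm

/-- First integrals of an involutive holomorphic distribution. -/
theorem frob_integral [FiniteDimensional ℂ V] (P : V → V →L[ℂ] V) (p : V)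
    (hd : ∀ᶠ q in 𝓝 p, DifferentiableAt ℂ P q) (hP : ∀ᶠ q in 𝓝 p, ∀ v, P q (P q v) = P q v)
    (hint : ∀ᶠ q in 𝓝 p, ∀ v w, P q (fderiv ℂ P q (P q v) w - fderiv ℂ P q (P q w) v) =
      fderiv ℂ P q (P q v) w - fderiv ℂ P q (P q w) v) :
    ∃ u : V → V, (∀ᶠ q in 𝓝 p, DifferentiableAt ℂ u q ∧ (∀ v, fderiv ℂ u q (P q v) = 0) ∧
      P p (u q) = 0 ∧ ∀ v, P p (fderiv ℂ u q v) = 0) ∧ fderiv ℂ u p = 1 - P p := by
  obtain ⟨B, hBd, hBc, hBP, hBp⟩ := exists_frame P p hd hP hint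
  obtain ⟨Ψ, hΨ, hΨ0⟩ := exists_flow B p hBd hBc
  have hP0 := hP.self_of_nhds
  let L : V →L[ℂ] V × V := (P p).prod (1 - P p)
  let ι : V → V × V := fun z => L z + (-P p p, P p p)
  have hι : ∀ z, HasFDerivAt ι L z := fun z => L.hasFDerivAt.add_const _
  have hιp : ι p = (0, p) := by simp [ι, L]
  have hιt : Tendsto ι (𝓝 p) (𝓝 (0, p)) := by
    rw [← hιp]; exact (hι p).continuousAt.tendsto
  have hΘ : ∀ᶠ z in 𝓝 p, HasFDerivAt (Ψ ∘ ι) ((fderiv ℂ Ψ (ι z)).comp L) z ∧
      ∀ w, fderiv ℂ Ψ (ι z) (w, 0) = B (Ψ (ι z)) w := by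
    filter_upwards [hιt.eventually hΨ] with z hz
    exact ⟨hz.1.hasFDerivAt.comp z (hι z), hz.2⟩
  have hΘp : (Ψ ∘ ι) p = p := by
    rw [Function.comp_apply, hιp]; exact hΨ0.self_of_nhds
  have hΨ2 : ∀ w, fderiv ℂ Ψ (0, p) (0, w) = w := fun w => by
    have h1 : HasFDerivAt (fun y : V => ((0 : V), y)) (ContinuousLinearMap.inr ℂ V V) p :=
      hasFDerivAt_prodMk_right 0 p
    have h2 := (hΨ.self_of_nhds.1.hasFDerivAt.comp p h1).fderiv
    rw [Filter.EventuallyEq.fderiv_eq (f₁ := Ψ ∘ Prod.mk 0) (f := id) hΨ0, fderiv_id] at h2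
    exact (congrArg (fun A => A w) h2).symm
  have hΘ1 : fderiv ℂ (Ψ ∘ ι) p = 1 := by
    ext v
    rw [hΘ.self_of_nhds.1.fderiv, hιp]
    have h1 : L v = (P p v, 0) + (0, v - P p v) := by simp [L]
    have h2 := hΨ.self_of_nhds.2 (P p v)
    rw [hΨ0.self_of_nhds, hBp, hP0] at h2
    rw [ContinuousLinearMap.comp_apply, h1, map_add, hΨ2, h2]
    simp
  obtain ⟨χ, hχp, hχ⟩ := exists_inverse (hΘ.mono fun z hz => hz.1.differentiableAt) hΘ1 hΘp
  have ht : Tendsto χ (𝓝 p) (𝓝 p) := by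
    have := hχ.self_of_nhds.1.continuousAt.tendsto
    rwa [hχp] at this
  have hu : ∀ q, DifferentiableAt ℂ χ q →
      HasFDerivAt (fun q => (1 - P p) (χ q)) ((1 - P p).comp (fderiv ℂ χ q)) q := fun q hq =>
    (1 - P p).hasFDerivAt.comp q hq.hasFDerivAt
  refine ⟨fun q => (1 - P p) (χ q), ?_, ?_⟩
  · filter_upwards [hχ, ht.eventually hΘ, hBP] with q h1 h2 h3
    refine ⟨(hu q h1.1).differentiableAt, fun v => ?_, by simp [hP0], fun v => ?_⟩
    · have h4 := h1.2.2 (P p (P q v))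
      have h5 : L (P p (P q v)) = (P p (P q v), 0) := by simp [L, hP0]
      have h6 : Ψ (ι (χ q)) = q := h1.2.1
      rw [h2.1.fderiv, ContinuousLinearMap.comp_apply, h5, h2.2, h6, h3] at h4
      rw [(hu q h1.1).fderiv, ContinuousLinearMap.comp_apply, h4]
      simp [hP0]
    · rw [(hu q h1.1).fderiv]
      simp [hP0]
  · ext v
    have h1 := hχ.self_of_nhds.2.2 v
    rw [hχp, hΘ1] at h1
    rw [(hu p hχ.self_of_nhds.1).fderiv, ContinuousLinearMap.comp_apply]
    exact congrArg _ h1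

/-- A chart straightening a field of projectors with involutive range and kernel. -/
theorem frob_chart [FiniteDimensional ℂ V] (P : V → V →L[ℂ] V) (p : V)
    (hd : ∀ᶠ q in 𝓝 p, DifferentiableAt ℂ P q) (hP : ∀ᶠ q in 𝓝 p, ∀ v, P q (P q v) = P q v)
    (hint : ∀ᶠ q in 𝓝 p, ∀ v w, P q (fderiv ℂ P q (P q v) w - fderiv ℂ P q (P q w) v) =
      fderiv ℂ P q (P q v) w - fderiv ℂ P q (P q w) v)
    (hint' : ∀ᶠ q in 𝓝 p, ∀ v w,
      P q (fderiv ℂ P q (v - P q v) w - fderiv ℂ P q (w - P q w) v) = 0) :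
    ∃ ψ : V → V, (∀ᶠ q in 𝓝 p, DifferentiableAt ℂ ψ q ∧
      ∀ v, fderiv ℂ ψ q (P q v) = P p (fderiv ℂ ψ q v)) ∧ fderiv ℂ ψ p = 1 := by
  obtain ⟨u, hu, hup⟩ := frob_integral P p hd hP hint
  have hQ : ∀ q, fderiv ℂ (fun q => 1 - P q) q = -fderiv ℂ P q := fun q => fderiv_const_sub _
  obtain ⟨u', hu', hup'⟩ := frob_integral (fun q => 1 - P q) p
    (hd.mono fun q hq => hq.const_sub _) (hP.mono fun q hq v => by simp [hq])
    (hint'.mono fun q hq v w => by
      have := hq v w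
      rw [map_sub] at this
      simp only [hQ, neg_apply, sub_apply, one_apply_eq_self, sub_eq_self]
      rw [map_sub, map_neg, map_neg, neg_sub_neg, ← neg_sub, this, neg_zero])
  refine ⟨fun q => u q + u' q, ?_, ?_⟩
  · filter_upwards [hu, hu'] with q h1 h2
    refine ⟨h1.1.add h2.1, fun v => ?_⟩
    have h3 := h2.2.1 v
    have h4 := h2.2.2.2 v
    simp only [sub_apply, one_apply_eq_self, map_sub, sub_eq_zero] at h3 h4
    rw [fderiv_fun_add h1.1 h2.1, add_apply, add_apply, h1.2.1, map_add, h1.2.2.2, ← h3, ← h4]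
  · rw [fderiv_fun_add hu.self_of_nhds.1 hu'.self_of_nhds.1, hup, hup']
    simp

end P278F
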